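import Vale.Agent.P088.R2.H349.J.Defs

/-!
# P088, systems on pairs of points: the rows

Rows are literal statements; the owner of a row proves `theorem rowX : RowX` (or
`rowX : RowY → ... → RowX`) in an own file.
-/

open MeasureTheory Set
open scoped ContDiff Matrix

noncomputable section

namespace Vale.Agent.P088.HY

open Vale.Agent.P088.LR

variable {n m N : ℕ}

/-! ## General rows -/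

/-- (ESTG) the basic estimate for systems: small first order terms, any bounded potentials. -/
def RowESTG : Prop := ∀ n m : ℕ, 3 ≤ n → ∃ C ε : ℝ, 0 < C ∧ 0 < ε ∧ ∀ M : ℝ, 0 < M →
  ∃ τ₀ : ℝ, 0 < τ₀ ∧ ∀ (s₁ s₂ : MF n) (e₁ e₂ : Co n m),
  TS n 3 ε s₁ → TS n 3 ε s₂ → CoOk 3 ε M e₁ → CoOk 3 ε M e₂ →
  ∀ η τ : ℝ, 0 ≤ η → DB 3 η s₁ s₂ → τ₀ ≤ τ → τ * η ≤ ε →
  ∀ a₁ a₂ : Fin m → VV n → ℝ, (∀ p, TF (Un n) (a₁ p)) → (∀ p, TF (Un n) (a₂ p)) →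
  ∑ p, ∫ z in Un n, th z * (τ ^ 2 * (a₁ p z + a₂ p z) ^ 2 + τ * (a₁ p z - a₂ p z) ^ 2) ≤
    C * ∑ p, ∫ z in Un n, th z *
      ((PxG s₁ (adj e₁) (-τ) a₁ p z + PyG s₂ (adj e₂) (-τ) a₂ p z) ^ 2
        + (PyG s₂ e₂ τ a₁ p z - PxG s₁ e₁ τ a₂ p z) ^ 2)

/-- (TOPG) vanishing in the top degree. -/
def RowTOPG : Prop := ∀ n m : ℕ, 3 ≤ n → ∃ ε : ℝ, 0 < ε ∧ ∀ M : ℝ, 0 < M →
  ∃ τ₀ : ℝ, 0 < τ₀ ∧ ∀ (s₁ s₂ : MF n) (e₁ e₂ : Co n m),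
  TS n 3 ε s₁ → TS n 3 ε s₂ → CoOk 3 ε M e₁ → CoOk 3 ε M e₂ → Com e₁ e₂ →
  ∀ τ : ℝ, τ₀ ≤ τ → ∀ g : Fin m → VV n → ℝ, (∀ p, ContDiffOn ℝ ∞ (g p) (Un n)) →
  (∀ p, IntegrableOn (fun z => th z * g p z ^ 2) (Un n)) →
  (∀ z ∈ Un n, ∀ p, PxG s₁ e₁ τ (PxG s₁ (adj e₁) (-τ) g) p z
    + PyG s₂ e₂ τ (PyG s₂ (adj e₂) (-τ) g) p z = 0) →
  ∀ z ∈ Un n, ∀ p, g p z = 0

/-- (SOLG) solution of the overdetermined system with the weight `wT τ`. -/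
def RowSOLG : Prop := ∀ n m : ℕ, 3 ≤ n → ∃ C ε : ℝ, 0 < C ∧ 0 < ε ∧ ∀ M : ℝ, 0 < M →
  ∃ τ₀ : ℝ, 0 < τ₀ ∧ ∀ (s₁ s₂ : MF n) (e₁ e₂ : Co n m),
  TS n 3 ε s₁ → TS n 3 ε s₂ → CoOk 3 ε M e₁ → CoOk 3 ε M e₂ → Com e₁ e₂ →
  ∀ η τ : ℝ, 0 ≤ η → DB 3 η s₁ s₂ → τ₀ ≤ τ → τ * η ≤ ε →
  ∀ F₁ F₂ : Fin m → VV n → ℝ, (∀ p, ContDiffOn ℝ ∞ (F₁ p) (Un n)) →
  (∀ p, ContDiffOn ℝ ∞ (F₂ p) (Un n)) →
  (∀ z ∈ Un n, ∀ p, LyG s₂ e₂ F₁ p z = LxG s₁ e₁ F₂ p z) →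
  (∀ p, IntegrableOn (fun z => (rr z.1 ^ 4 * F₁ p z ^ 2 + rr z.2 ^ 4 * F₂ p z ^ 2) * wT τ z)
    (Un n)) →
  ∃ w : Fin m → VV n → ℝ, (∀ p, ContDiffOn ℝ ∞ (w p) (Un n)) ∧
    (∀ z ∈ Un n, ∀ p, LxG s₁ e₁ w p z = F₁ p z) ∧
    (∀ z ∈ Un n, ∀ p, LyG s₂ e₂ w p z = F₂ p z) ∧
    (∀ p, IntegrableOn (fun z => w p z ^ 2 * wT τ z) (Un n)) ∧
    ∑ p, ∫ z in Un n, w p z ^ 2 * wT τ z ≤
      C / τ * ∑ p, ∫ z in Un n, (rr z.1 ^ 4 * F₁ p z ^ 2 + rr z.2 ^ 4 * F₂ p z ^ 2) * wT τ z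

/-- (INPG) uniform interior estimate for systems on pairs at the scale `1/λ`, any centre, no
smallness of the lower order terms. -/
def RowINPG : Prop := ∀ n m : ℕ, ∃ (K : ℕ) (ε : ℝ), 0 < ε ∧ ∀ M : ℝ, 0 < M → ∃ C : ℝ, 0 < C ∧
  ∀ (s₁ s₂ : MF n) (e₁ e₂ : Co n m), SmM s₁ → SmM s₂ →
  (∀ i j, Cl K ε (fun x => s₁ x i j - (1 : Matrix (Fin n) (Fin n) ℝ) i j)) →
  (∀ i j, Cl K ε (fun x => s₂ x i j - (1 : Matrix (Fin n) (Fin n) ℝ) i j)) →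
  CoOk K M M e₁ → CoOk K M M e₂ →
  ∀ (z₀ : VV n) (lam : ℝ), 1 ≤ lam → ∀ w F : Fin m → VV n → ℝ,
  (∀ p, ContDiffOn ℝ ∞ (w p) (Metric.ball z₀ (2 / lam))) →
  (∀ p, ContDiffOn ℝ ∞ (F p) (Metric.ball z₀ (2 / lam))) →
  (∀ z ∈ Metric.ball z₀ (2 / lam), ∀ p, LxG s₁ e₁ w p z + LyG s₂ e₂ w p z = F p z) →
  (∀ p, IntegrableOn (fun z => w p z ^ 2) (Metric.ball z₀ (2 / lam))) →
  ∀ B : ℝ, (∀ p, ∀ l ≤ K, ∀ z ∈ Metric.ball z₀ (2 / lam),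
    ‖iteratedFDeriv ℝ l (F p) z‖ ≤ B * lam ^ l) →
  ∀ p, ∀ l ≤ 2, ‖iteratedFDeriv ℝ l (w p) z₀‖ ≤
    C * (lam ^ (n + l) * √(∑ q, ∫ z in Metric.ball z₀ (2 / lam), w q z ^ 2)
      + B * lam ^ l / lam ^ 2)

/-- (ORTG) the orthogonality identity extends to doubly harmonic functions of `(x, y)`; no
divergence condition is used. -/
def RowORTG : Prop := ∀ n m₁ m₂ : ℕ, ∃ (K : ℕ) (ε : ℝ), 0 < ε ∧ ∀ M : ℝ, 0 < M →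
  ∀ (s₁ s₂ : MF n) (e₁ : Co n m₁) (e₂ : Co n m₂), SmM s₁ → SmM s₂ →
  (∀ i j, Cl K ε (fun x => s₁ x i j - (1 : Matrix (Fin n) (Fin n) ℝ) i j)) →
  (∀ i j, Cl K ε (fun x => s₂ x i j - (1 : Matrix (Fin n) (Fin n) ℝ) i j)) →
  CoOk K M M e₁ → CoOk K M M e₂ → ∀ P : Pf n m₁ m₂, PfOk P → IdP s₁ s₂ e₁ e₂ P →
  ∀ k : Fin m₁ → Fin m₂ → VV n → ℝ,
  (∀ p q, ContDiffOn ℝ ∞ (k p q) (Bs n (7 / 8) ×ˢ Bs n (7 / 8))) →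
  (∀ z ∈ Bs n (7 / 8) ×ˢ Bs n (7 / 8), ∀ p q, LxG s₁ e₁ (fun p' => k p' q) p z = 0) →
  (∀ z ∈ Bs n (7 / 8) ×ˢ Bs n (7 / 8), ∀ p q, LyG s₂ e₂ (fun q' => k p q') q z = 0) →
  ∫ x in Bs n (3 / 4), P.dg k x = 0

/-! ## One metric, two connections and two potentials (T2) -/

/-- (LIM) the solutions `w` of `LxG w = LxG k`, `LyG w = LyG k` are small on the diagonal. -/
def RowLIM : Prop := ∀ n m : ℕ, 3 ≤ n → ∃ (K : ℕ) (ε : ℝ), 0 < ε ∧ ∀ M : ℝ, 0 < M →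
  ∀ (s : MF n) (e₁ e₂ : Co n m), TS n K ε s → CoOk K ε M e₁ → CoOk K ε M e₂ → Com e₁ e₂ →
  ∀ k : Fin m → VV n → ℝ, (∀ p, ContDiff ℝ ∞ (k p)) → ∀ δ : ℝ, 0 < δ →
  ∃ w : Fin m → VV n → ℝ, (∀ p, ContDiffOn ℝ ∞ (w p) (Un n)) ∧
    (∀ z ∈ Un n, ∀ p, LxG s e₁ w p z = LxG s e₁ k p z ∧ LyG s e₂ w p z = LyG s e₂ k p z) ∧
    ∫ x in Bs n (3 / 4), ∑ p, |w p (x, x)| ≤ δ ∧
    ((∀ x ∈ Bn n, ∀ p, LxG s e₁ k p (x, x) = 0 ∧ LyG s e₂ k p (x, x) = 0) →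
      ∫ x in Bs n (3 / 4), ∑ p, ∑ i, (|dx i (w p) (x, x)| + |dy i (w p) (x, x)|) ≤ δ)

/-- The covariant derivative `∂_i X + A₁ X - X A₂` of a matrix function. -/
def Dh (A₁ A₂ : Cn' n N) (i : Fin n) (X : Mx n N) (x : V n) : Matrix (Fin N) (Fin N) ℝ :=
  (Matrix.of fun p q => pd i (fun y => X y p q) x) + A₁ i x * X x - X x * A₂ i x

/-- The covariant divergence `∑_i D_i (∑_j s_ij λ_j)`. -/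
def Dvh (s : MF n) (A₁ A₂ : Cn' n N) (lm : Cn' n N) (x : V n) : Matrix (Fin N) (Fin N) ℝ :=
  ∑ i, Dh A₁ A₂ i (fun y => ∑ j, s y i j • lm j y) x

/-- `∑ s_ij tr (α_iᵀ β_j)`. -/
def ipc (s : MF n) (α β : Cn' n N) (x : V n) : ℝ :=
  ∑ i, ∑ j, s x i j * ∑ p, ∑ q, α i x p q * β j x p q

/-- (DIRG) the covariant Dirichlet problem on the ball of radius `2`. -/
def RowDIRG : Prop := ∀ n N : ℕ, 3 ≤ n → ∃ (K : ℕ) (ε : ℝ), 0 < ε ∧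
  ∀ (s : MF n) (A₁ A₂ : Cn' n N), SmM s → (∀ x, (s x).IsSymm) →
  (∀ i j, Cl K ε (fun x => s x i j - (1 : Matrix (Fin n) (Fin n) ℝ) i j)) →
  AOk K ε A₁ → AOk K ε A₂ →
  ∀ a : Cn' n N, (∀ i p q, ContDiff ℝ ∞ (fun x => a i x p q)) →
  (∀ x ∉ Bs n (3 / 4), ∀ i, a i x = 0) →
  ∃ Ψ : Mx n N, (∀ p q, ContDiffOn ℝ ∞ (fun x => Ψ x p q) (Bs n 2)) ∧
    (∀ p q, IntegrableOn (fun x => Ψ x p q ^ 2 / (4 - sq x) ^ 2) (Bs n 2)) ∧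
    (∀ i p q, IntegrableOn (fun x => (a i x + Dh A₁ A₂ i Ψ x) p q ^ 2) (Bs n 2)) ∧
    (∀ x ∈ Bs n 2, Dvh s A₁ A₂ (fun i y => a i y + Dh A₁ A₂ i Ψ y) x = 0) ∧
    ∫ x in Bs n 2, ipc s (fun i y => a i y + Dh A₁ A₂ i Ψ y)
        (fun i y => a i y + Dh A₁ A₂ i Ψ y) x =
      ∫ x in Bs n 2, ipc s (fun i y => a i y + Dh A₁ A₂ i Ψ y) a x

/-- (T2P) `A₁ - A₂` is orthogonal to the covariantly divergence free forms. -/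
def RowT2P : Prop := ∀ n N : ℕ, 3 ≤ n → ∃ (K : ℕ) (ε : ℝ), 0 < ε ∧ ∀ M : ℝ, 0 < M →
  ∀ (s : MF n) (A₁ A₂ : Cn' n N) (Q₁ Q₂ : Mx n N), TS n K ε s → AOk K ε A₁ → AOk K ε A₂ →
  QOk K M Q₁ → QOk K M Q₂ → (∀ x ∉ Bs n (3 / 4), ∀ i, A₂ i x = A₁ i x) →
  (∀ x ∉ Bs n (3 / 4), Q₂ x = Q₁ x) → IdA s A₁ A₂ Q₁ Q₂ →
  ∀ lm : Cn' n N, (∀ i p q, ContDiff ℝ ∞ (fun x => lm i x p q)) →
  (∀ x ∈ Bn n, Dvh s A₁ A₂ lm x = 0) →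
  ∫ x in Bs n (3 / 4), ipc s (fun i y => A₂ i y - A₁ i y) lm x = 0

/-- `V` is an orthogonal gauge from `A₁` to `A₂` which is `1` off the ball of radius `3/4`. -/
structure Gau (A₁ A₂ : Cn' n N) (G : Mx n N) : Prop where
  sm : ∀ p q, ContDiff ℝ ∞ (fun x => G x p q)
  o : ∀ x, G x * (G x)ᵀ = 1
  p : ∀ i x, Dh A₁ A₂ i G x = 0
  z : ∀ x ∉ Bs n (3 / 4), G x = 1
  c : ∀ J : Matrix (Fin N) (Fin N) ℝ, (∀ i x, A₁ i x * J = J * A₁ i x) →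
    (∀ i x, A₂ i x * J = J * A₂ i x) → ∀ x, G x * J = J * G x

/-- (T2A) the connections are gauge equivalent. -/
def RowT2A : Prop := ∀ n N : ℕ, 3 ≤ n → ∃ (K : ℕ) (ε : ℝ), 0 < ε ∧ ∀ M : ℝ, 0 < M →
  ∀ (s : MF n) (A₁ A₂ : Cn' n N) (Q₁ Q₂ : Mx n N), TS n K ε s → AOk K ε A₁ → AOk K ε A₂ →
  QOk K M Q₁ → QOk K M Q₂ → (∀ x ∉ Bs n (3 / 4), ∀ i, A₂ i x = A₁ i x) →
  (∀ x ∉ Bs n (3 / 4), Q₂ x = Q₁ x) → IdA s A₁ A₂ Q₁ Q₂ → ∃ G : Mx n N, Gau A₁ A₂ G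

/-- (T2G) change of gauge in the identity. -/
def RowT2G : Prop := ∀ (n N : ℕ) (s : MF n) (A₁ A₂ : Cn' n N) (Q₁ Q₂ : Mx n N) (G : Mx n N),
  SmM s → (∀ x, (s x).IsSymm) → AOk 0 1 A₁ → AOk 0 1 A₂ →
  (∀ p q, ContDiff ℝ ∞ (fun x => Q₁ x p q)) → (∀ p q, ContDiff ℝ ∞ (fun x => Q₂ x p q)) →
  (∀ x, (Q₁ x)ᵀ = Q₁ x) → (∀ x, (Q₂ x)ᵀ = Q₂ x) → Gau A₁ A₂ G →
  (∀ x ∉ Bs n (3 / 4), ∀ i, A₂ i x = A₁ i x) → (∀ x ∉ Bs n (3 / 4), Q₂ x = Q₁ x) →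
  IdA s A₁ A₂ Q₁ Q₂ → IdA s A₂ A₂ (fun x => (G x)ᵀ * Q₁ x * G x) Q₂

/-- (T2B) the potentials are equal if the connections are. -/
def RowT2B : Prop := ∀ n N : ℕ, 3 ≤ n → ∃ (K : ℕ) (ε : ℝ), 0 < ε ∧ ∀ M : ℝ, 0 < M →
  ∀ (s : MF n) (A : Cn' n N) (Q₁ Q₂ : Mx n N), TS n K ε s → AOk K ε A →
  QOk K M Q₁ → QOk K M Q₂ → (∀ x ∉ Bs n (3 / 4), Q₂ x = Q₁ x) → IdA s A A Q₁ Q₂ →
  ∀ x, Q₁ x = Q₂ x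

/-- (T2) one metric near the flat one, two small connections, two bounded potentials. -/
def RowT2 : Prop := ∀ n N : ℕ, 3 ≤ n → ∃ (K : ℕ) (ε : ℝ), 0 < ε ∧ ∀ M : ℝ, 0 < M →
  ∀ (s : MF n) (A₁ A₂ : Cn' n N) (Q₁ Q₂ : Mx n N), TS n K ε s → AOk K ε A₁ → AOk K ε A₂ →
  QOk K M Q₁ → QOk K M Q₂ → (∀ x ∉ Bs n (3 / 4), ∀ i, A₂ i x = A₁ i x) →
  (∀ x ∉ Bs n (3 / 4), Q₂ x = Q₁ x) → IdA s A₁ A₂ Q₁ Q₂ →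
  ∃ G : Mx n N, Gau A₁ A₂ G ∧ ∀ x, Q₁ x * G x = G x * Q₂ x

/-! ## Dependencies (to be proved as theorems)

* `rowESTG : (strong scalar rowESTs) → RowESTG`
* `rowTOPG : ... → RowTOPG`
* `rowSOLG : RowESTG → RowTOPG → RowHYP → RowSOLG`
* `rowINPG : RowINPG`
* `rowORTG : RowHYP → RowORTG`
* `rowLIM : RowSOLG → RowINPG → RowLIM`
* `rowDIRG : RowHYP → RowDIRG`
* `rowT2P : RowLIM → RowORTG → RowT2P`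
* `rowT2A : RowDIRG → RowT2P → RowT2A`
* `rowT2G : RowT2G`
* `rowT2B : RowLIM → RowORTG → RowT2B`
* `rowT2 : RowT2A → RowT2G → RowT2B → RowT2`
-/

end Vale.Agent.P088.HY
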