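import Vale.Agent.P088.R2.H558.Spec

/-!
# P088, systems on pairs of points: definitions

`f : Fin m → VV n → ℝ` is a vector of functions of `(x, y)`; the first operator acts in `x`, the
second one in `y`; all matrices of the first operator commute with all matrices of the second one.
-/

open MeasureTheory Set
open scoped ContDiff Matrix

noncomputable section

namespace Vale.Agent.P088.HY

open Vale.Agent.P088.LR

variable {n m N : ℕ}

/-- Coefficients of order one and zero. -/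
structure Co (n m : ℕ) where
  b : Fin n → V n → Matrix (Fin m) (Fin m) ℝ
  c : V n → Matrix (Fin m) (Fin m) ℝ

/-- Smooth coefficients, `b` is bounded by `ε`, `c` by `M` (with derivatives up to order `K`). -/
structure CoOk (K : ℕ) (ε M : ℝ) (e : Co n m) : Prop where
  sb : ∀ l p q, ContDiff ℝ ∞ (fun x => e.b l x p q)
  sc : ∀ p q, ContDiff ℝ ∞ (fun x => e.c x p q)
  bb : ∀ l p q, Cl K ε (fun x => e.b l x p q)
  bc : ∀ p q, Cl K M (fun x => e.c x p q)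

/-- All matrices of `e₁` commute with all matrices of `e₂`. -/
structure Com (e₁ e₂ : Co n m) : Prop where
  bb : ∀ k l x y, e₁.b k x * e₂.b l y = e₂.b l y * e₁.b k x
  bc : ∀ k x y, e₁.b k x * e₂.c y = e₂.c y * e₁.b k x
  cb : ∀ l x y, e₁.c x * e₂.b l y = e₂.b l y * e₁.c x
  cc : ∀ x y, e₁.c x * e₂.c y = e₂.c y * e₁.c x

/-- The coefficients of the adjoint of `∑ s_ij ∂_i ∂_j + ∑ b_l ∂_l + c` (`s` divergence free). -/
def adj (e : Co n m) : Co n m where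
  b l x := -(e.b l x)ᵀ
  c x := (e.c x)ᵀ - Matrix.of fun p q => ∑ l, pd l (fun y => e.b l y q p) x

/-- `∑ s_ij ∂_i ∂_j u + ∑ b_l ∂_l u + c u`, functions of one variable. -/
def LvG (s : MF n) (e : Co n m) (u : Fin m → V n → ℝ) (p : Fin m) (x : V n) : ℝ :=
  Lv s (u p) x + ∑ q, (∑ l, e.b l x p q * pd l (u q) x + e.c x p q * u q x)

/-- The operator in `x`. -/
def LxG (s : MF n) (e : Co n m) (f : Fin m → VV n → ℝ) (p : Fin m) (z : VV n) : ℝ :=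
  Lx s (f p) z + ∑ q, (∑ l, e.b l z.1 p q * dx l (f q) z + e.c z.1 p q * f q z)

/-- The operator in `y`. -/
def LyG (s : MF n) (e : Co n m) (f : Fin m → VV n → ℝ) (p : Fin m) (z : VV n) : ℝ :=
  Ly s (f p) z + ∑ q, (∑ l, e.b l z.2 p q * dy l (f q) z + e.c z.2 p q * f q z)

/-- `e^{-τu} r^{γ+2} LxG (r^{-γ} e^{τu} f)`, `γ = (n - 2) / 2`; its adjoint in `L²(θ)` is
`PxG s (adj e) (-τ)`. -/
def PxG (s : MF n) (e : Co n m) (τ : ℝ) (f : Fin m → VV n → ℝ) (p : Fin m) (z : VV n) : ℝ :=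
  Px s τ (f p) z + ∑ q, (∑ l, rr z.1 * e.b l z.1 p q *
    (Ax l (f q) z + τ * al l z * f q z + ga n * z.1 l * f q z) + rr z.1 ^ 2 * e.c z.1 p q * f q z)

/-- The same in `y`. -/
def PyG (s : MF n) (e : Co n m) (τ : ℝ) (f : Fin m → VV n → ℝ) (p : Fin m) (z : VV n) : ℝ :=
  Py s τ (f p) z + ∑ q, (∑ l, rr z.2 * e.b l z.2 p q *
    (By l (f q) z + τ * be l z * f q z + ga n * z.2 l * f q z) + rr z.2 ^ 2 * e.c z.2 p q * f q z)

/-- The weight `e^{-2τ(u-1)} / (r(x) r(y))²`. -/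
def wT (τ : ℝ) (z : VV n) : ℝ := Real.exp (-(2 * τ * (uu z - 1))) / (rr z.1 * rr z.2) ^ 2

/-! ## Bilinear pairings -/

/-- Coefficients of a local bilinear form of first order. -/
structure Pf (n m₁ m₂ : ℕ) where
  h : Fin n → Fin n → V n → Matrix (Fin m₁) (Fin m₂) ℝ
  a : Fin n → V n → Matrix (Fin m₁) (Fin m₂) ℝ
  b : Fin n → V n → Matrix (Fin m₁) (Fin m₂) ℝ
  c : V n → Matrix (Fin m₁) (Fin m₂) ℝ

/-- Smooth coefficients which vanish off the ball of radius `3/4`. -/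
structure PfOk {m₁ m₂ : ℕ} (P : Pf n m₁ m₂) : Prop where
  sh : ∀ i j p q, ContDiff ℝ ∞ (fun x => P.h i j x p q)
  sa : ∀ i p q, ContDiff ℝ ∞ (fun x => P.a i x p q)
  sb : ∀ i p q, ContDiff ℝ ∞ (fun x => P.b i x p q)
  sc : ∀ p q, ContDiff ℝ ∞ (fun x => P.c x p q)
  z : ∀ x ∉ Bs n (3 / 4), (∀ i j, P.h i j x = 0) ∧ (∀ i, P.a i x = 0) ∧ (∀ i, P.b i x = 0) ∧
    P.c x = 0

/-- The form on a pair `(u, v)`. -/
def Pf.uv {m₁ m₂ : ℕ} (P : Pf n m₁ m₂) (u : Fin m₁ → V n → ℝ) (v : Fin m₂ → V n → ℝ) (x : V n) :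
    ℝ :=
  ∑ p, ∑ q, ((∑ i, ∑ j, P.h i j x p q * pd i (u p) x * pd j (v q) x)
    + (∑ i, P.a i x p q * pd i (u p) x * v q x) + (∑ i, P.b i x p q * u p x * pd i (v q) x)
    + P.c x p q * u p x * v q x)

/-- The form on a function of `(x, y)`, evaluated on the diagonal. -/
def Pf.dg {m₁ m₂ : ℕ} (P : Pf n m₁ m₂) (k : Fin m₁ → Fin m₂ → VV n → ℝ) (x : V n) : ℝ :=
  ∑ p, ∑ q, ((∑ i, ∑ j, P.h i j x p q * dx i (dy j (k p q)) (x, x))
    + (∑ i, P.a i x p q * dx i (k p q) (x, x)) + (∑ i, P.b i x p q * dy i (k p q) (x, x))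
    + P.c x p q * k p q (x, x))

/-- The local orthogonality identity. -/
def IdP {m₁ m₂ : ℕ} (s₁ s₂ : MF n) (e₁ : Co n m₁) (e₂ : Co n m₂) (P : Pf n m₁ m₂) : Prop :=
  ∀ (u : Fin m₁ → V n → ℝ) (v : Fin m₂ → V n → ℝ), (∀ p, ContDiff ℝ ∞ (u p)) →
    (∀ q, ContDiff ℝ ∞ (v q)) → (∀ x ∈ Bs n (3 / 4), ∀ p, LvG s₁ e₁ u p x = 0) →
    (∀ x ∈ Bs n (3 / 4), ∀ q, LvG s₂ e₂ v q x = 0) → ∫ x in Bs n (3 / 4), P.uv u v x = 0

/-! ## Connections and potentials -/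

/-- Matrix valued one forms. -/
abbrev Cn' (n N : ℕ) := Fin n → V n → Matrix (Fin N) (Fin N) ℝ

/-- Matrix valued functions. -/
abbrev Mx (n N : ℕ) := V n → Matrix (Fin N) (Fin N) ℝ

/-- Smooth skew connections, bounded by `ε` with derivatives up to order `K`. -/
structure AOk (K : ℕ) (ε : ℝ) (A : Cn' n N) : Prop where
  sm : ∀ l p q, ContDiff ℝ ∞ (fun x => A l x p q)
  sk : ∀ l x, (A l x)ᵀ = -A l x
  bd : ∀ l p q, Cl K ε (fun x => A l x p q)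

/-- Smooth symmetric potentials, bounded with derivatives up to order `K`. -/
structure QOk (K : ℕ) (M : ℝ) (Q : Mx n N) : Prop where
  sm : ∀ p q, ContDiff ℝ ∞ (fun x => Q x p q)
  sy : ∀ x, (Q x)ᵀ = Q x
  bd : ∀ p q, Cl K M (fun x => Q x p q)

/-- The covariant derivative `∂_i u + A_i u`. -/
def Dc (A : Cn' n N) (i : Fin n) (u : Fin N → V n → ℝ) (p : Fin N) (x : V n) : ℝ :=
  pd i (u p) x + ∑ q, A i x p q * u q x

/-- `∑_i D_i (∑_j s_ij D_j u) - Q u`. -/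
def LA (s : MF n) (A : Cn' n N) (Q : Mx n N) (u : Fin N → V n → ℝ) (p : Fin N) (x : V n) : ℝ :=
  ∑ i, Dc A i (fun q y => ∑ j, s y i j * Dc A j u q y) p x - ∑ q, Q x p q * u q x

/-- The orthogonality identity for two connections and two potentials and one tensor. -/
def IdA (s : MF n) (A₁ A₂ : Cn' n N) (Q₁ Q₂ : Mx n N) : Prop :=
  ∀ u v : Fin N → V n → ℝ, (∀ p, ContDiff ℝ ∞ (u p)) → (∀ p, ContDiff ℝ ∞ (v p)) →
    (∀ x ∈ Bs n (3 / 4), ∀ p, LA s A₁ Q₁ u p x = 0) →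
    (∀ x ∈ Bs n (3 / 4), ∀ p, LA s A₂ Q₂ v p x = 0) →
    ∫ x in Bs n (3 / 4), ((∑ i, ∑ j, ∑ p, s x i j * (Dc A₁ i u p x * Dc A₁ j v p x -
      Dc A₂ i u p x * Dc A₂ j v p x)) + ∑ p, ∑ q, (Q₁ x p q - Q₂ x p q) * u q x * v p x) = 0

end Vale.Agent.P088.HY
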