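import Vale.Agent.P088.R2.H349.J.Spec
import Vale.Agent.P088.H599.J.Defs

/-!
# P088, T2 in complex form with conformal factors
-/

open MeasureTheory Set
open scoped ContDiff Matrix

noncomputable section

namespace Vale.Agent.P088.HY

open Vale.Agent.P088.LR Vale.Agent.P088.LR.H158

/-- (T2C) tensors `σ₁ s`, `σ₂ s` with arbitrary conformal factors and small unitary connections. -/
def RowT2C : Prop := ∀ n N : ℕ, 3 ≤ n → 1 ≤ N → ∃ (k : ℕ) (ε : ℝ), 0 < ε ∧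
  ∀ Ω : Set (V n), IsOpen Ω →
  interior (closure Ω) = Ω → IsPreconnected (closure Ω)ᶜ → Ω ⊆ Bs n (1 / 2) → ∀ s : MF n,
  TS n k ε s → ∀ σ₁ σ₂ : V n → ℝ, ContDiff ℝ ∞ σ₁ → ContDiff ℝ ∞ σ₂ → (∀ x, 0 < σ₁ x) →
  (∀ x, 0 < σ₂ x) → (∀ x ∉ Ω, σ₂ x = σ₁ x) → ∀ A₁ A₂ : Cn n N, SmU A₁ → SmU A₂ →
  (∀ i, ∀ x ∉ Ω, A₂ i x = A₁ i x) → (∀ i, U.ClC k ε (A₁ i)) → (∀ i, U.ClC k ε (A₂ i)) →
  U.OrU Ω (fun x => σ₁ x • s x) A₁ (fun x => σ₂ x • s x) A₂ →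
  (∀ x, σ₂ x = σ₁ x) ∧ ∃ W : U.MC n N, SmC W ∧ (∀ x, (W x)ᴴ * W x = 1) ∧ (∀ x ∉ Ω, W x = 1) ∧
    ∀ i x, A₂ i x = (W x)ᴴ * A₁ i x * W x + (W x)ᴴ * pdm i W x

end Vale.Agent.P088.HY
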