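import Vale.Agent.P088.R2.H349.J.Spec

/-!
# P088, two metrics and two connections near the flat pair: the core rows

Everything is real: `m × m` matrices, `P` symmetric near `1`, `κ` skew and small.  The operator in
the harmonic frame is `M u = ∑ ∂_i (s_ij P ∂_j u) + ∑ κ_i ∂_i u`, and `P⁻¹ M` is an operator `LvG`.
-/

open MeasureTheory Set
open scoped ContDiff Matrix

noncomputable section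

namespace Vale.Agent.P088.HY

open Vale.Agent.P088.LR

variable {n m : ℕ}

/-- The sum of the squares of the entries. -/
def fr2 (X : Matrix (Fin m) (Fin m) ℝ) : ℝ := ∑ p, ∑ q, X p q ^ 2

/-- Entrywise derivative. -/
def pdX (i : Fin n) (X : Mx n m) (x : V n) : Matrix (Fin m) (Fin m) ℝ :=
  Matrix.of fun p q => pd i (fun y => X y p q) x

/-- A tensor `s`, a symmetric matrix function `P` and a skew form `κ` near `(1, 1, 0)`; they are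
equal to `1`, `1`, `0` off the ball of radius `3/4`. -/
structure HfOk (K : ℕ) (ε : ℝ) (s : MF n) (P : Mx n m) (κ : Cn' n m) : Prop where
  ss : SmM s
  sp : ∀ p q, ContDiff ℝ ∞ (fun x => P x p q)
  sk : ∀ i p q, ContDiff ℝ ∞ (fun x => κ i x p q)
  ys : ∀ x, (s x).IsSymm
  yp : ∀ x, (P x)ᵀ = P x
  yk : ∀ i x, (κ i x)ᵀ = -κ i x
  cs : ∀ i j, Cl K ε (fun x => s x i j - (1 : Matrix (Fin n) (Fin n) ℝ) i j)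
  cp : ∀ p q, Cl K ε (fun x => P x p q - (1 : Matrix (Fin m) (Fin m) ℝ) p q)
  ck : ∀ i p q, Cl K ε (fun x => κ i x p q)
  zs : ∀ x ∉ Bs n (3 / 4), s x = 1
  zp : ∀ x ∉ Bs n (3 / 4), P x = 1
  zk : ∀ i, ∀ x ∉ Bs n (3 / 4), κ i x = 0

/-- `M u = ∑ ∂_i (s_ij P ∂_j u) + ∑ κ_i ∂_i u`. -/
def MR (s : MF n) (P : Mx n m) (κ : Cn' n m) (u : Fin m → V n → ℝ) (p : Fin m) (x : V n) : ℝ :=
  ∑ i, pd i (fun y => ∑ j, ∑ q, s y i j * P y p q * pd j (u q) y) x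
    + ∑ i, ∑ q, κ i x p q * pd i (u q) x

/-- The coefficients of `P⁻¹ M = ∑ s_ij ∂_i ∂_j + ∑ b_l ∂_l`. -/
def coH (s : MF n) (P : Mx n m) (κ : Cn' n m) : Co n m where
  b l x := ∑ i, (pd i (fun y => s y i l) x • (1 : Matrix (Fin m) (Fin m) ℝ)
    + s x i l • ((P x)⁻¹ * pdX i P x)) + (P x)⁻¹ * κ l x
  c _ := 0

/-- `s₂ P₂ - s₁ P₁`. -/
def dH (s₁ : MF n) (P₁ : Mx n m) (s₂ : MF n) (P₂ : Mx n m) (i j : Fin n) (x : V n) :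
    Matrix (Fin m) (Fin m) ℝ := s₂ x i j • P₂ x - s₁ x i j • P₁ x

/-- The orthogonality identity in the harmonic frame, on the ball of radius `3/4`. -/
def StR (s₁ : MF n) (P₁ : Mx n m) (κ₁ : Cn' n m) (s₂ : MF n) (P₂ : Mx n m) (κ₂ : Cn' n m) : Prop :=
  ∀ u w : Fin m → V n → ℝ, (∀ p, ContDiff ℝ ∞ (u p)) → (∀ p, ContDiff ℝ ∞ (w p)) →
    (∀ x ∈ Bs n (3 / 4), ∀ p, MR s₁ P₁ κ₁ u p x = 0) →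
    (∀ x ∈ Bs n (3 / 4), ∀ p, MR s₂ P₂ κ₂ w p x = 0) →
    ∫ x in Bs n (3 / 4), ((∑ i, ∑ j, ∑ p, ∑ q,
      dH s₁ P₁ s₂ P₂ i j x q p * pd i (u p) x * pd j (w q) x)
      - ∑ i, ∑ p, ∑ q, (κ₂ i x - κ₁ i x) q p * pd i (u p) x * w q x) = 0

/-- `∑ (s₂ - s₁)_ij² + ∑ |κ₂ - κ₁|²`. -/
def XX (s₁ : MF n) (κ₁ : Cn' n m) (s₂ : MF n) (κ₂ : Cn' n m) (x : V n) : ℝ :=
  ∑ i, ∑ j, (s₂ x i j - s₁ x i j) ^ 2 + ∑ i, fr2 (κ₂ i x - κ₁ i x)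

/-- The difference of the two sets of data: equal off the ball of radius `1/2`, `κ₂ - κ₁`
divergence free, `s₂ - s₁` almost divergence free and `P₂ - P₁` small compared with the rest. -/
structure DfOk (δ : ℝ) (s₁ : MF n) (P₁ : Mx n m) (κ₁ : Cn' n m) (s₂ : MF n) (P₂ : Mx n m)
    (κ₂ : Cn' n m) : Prop where
  z : ∀ x ∉ Bs n (1 / 2), s₂ x = s₁ x ∧ P₂ x = P₁ x ∧ ∀ i, κ₂ i x = κ₁ i x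
  dk : ∀ x, ∑ i, pdX i (fun y => κ₂ i y - κ₁ i y) x = 0
  ds : ∫ x, ∑ j, (∑ i, pd i (fun y => s₂ y i j - s₁ y i j) x) ^ 2 ≤
    δ ^ 2 * ∫ x, XX s₁ κ₁ s₂ κ₂ x
  dp : ∫ x, ∑ i, fr2 (pdX i (fun y => P₂ y - P₁ y) x) ≤ δ ^ 2 * ∫ x, XX s₁ κ₁ s₂ κ₂ x

/-- (CO2A) rigidity of two sets of data in the harmonic frame. -/
def RowCO2A : Prop := ∀ n m : ℕ, 3 ≤ n → 1 ≤ m → ∃ (K : ℕ) (ε : ℝ), 0 < ε ∧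
  ∀ (s₁ s₂ : MF n) (P₁ P₂ : Mx n m) (κ₁ κ₂ : Cn' n m), HfOk K ε s₁ P₁ κ₁ → HfOk K ε s₂ P₂ κ₂ →
  DfOk ε s₁ P₁ κ₁ s₂ P₂ κ₂ → StR s₁ P₁ κ₁ s₂ P₂ κ₂ →
  ∀ x, s₂ x = s₁ x ∧ P₂ x = P₁ x ∧ ∀ i, κ₂ i x = κ₁ i x

/-! ## Dirichlet problem on the ball of radius `2` and harmonic charts -/

/-- (DIRS) generic Dirichlet problem for systems with small lower order terms: existence,
interior bounds, `H^{-1}` bound. -/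
def RowDIRS : Prop := ∀ n m L : ℕ, 3 ≤ n → ∃ (K : ℕ) (C ε : ℝ), 0 < C ∧ 0 < ε ∧
  ∀ (s : MF n) (e : Co n m), SmM s → (∀ x, (s x).IsSymm) →
  (∀ i j, Cl K ε (fun x => s x i j - (1 : Matrix (Fin n) (Fin n) ℝ) i j)) → CoOk K ε ε e →
  ∀ f : Fin m → V n → ℝ, (∀ p, ContDiff ℝ ∞ (f p)) →
  ∃ u : Fin m → V n → ℝ, (∀ p, ContDiffOn ℝ ∞ (u p) (Bs n 2)) ∧
    (∀ x ∈ Bs n 2, ∀ p, LvG s e u p x = f p x) ∧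
    (∀ p, IntegrableOn (fun x => u p x ^ 2 + ∑ i, pd i (u p) x ^ 2) (Bs n 2)) ∧
    (∀ B : ℝ, (∀ p, Cl K B (f p)) → ∀ p, ∀ l ≤ L, ∀ x ∈ Bs n (7 / 4),
      ‖iteratedFDeriv ℝ l (u p) x‖ ≤ C * B) ∧
    ∀ (φ : Fin m → Fin n → V n → ℝ) (φ₀ : Fin m → V n → ℝ), (∀ p i, ContDiff ℝ ∞ (φ p i)) →
      (∀ p, ContDiff ℝ ∞ (φ₀ p)) → (∀ p x, f p x = ∑ i, pd i (φ p i) x + φ₀ p x) →
      ∑ p, ∫ x in Bs n 2, (u p x ^ 2 + ∑ i, pd i (u p) x ^ 2) ≤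
        C * ∑ p, ∫ x in Bs n 2, (∑ i, φ p i x ^ 2 + φ₀ p x ^ 2)

/-- (HC) global diffeomorphisms which are harmonic on `Bs (3/2)`, for two tensors. -/
def RowHC : Prop := ∀ n L : ℕ, 3 ≤ n → ∃ (K : ℕ) (C ε : ℝ), 0 < C ∧ 0 < ε ∧
  ∀ s₁ s₂ : MF n, SmM s₁ → SmM s₂ → (∀ x, (s₁ x).IsSymm) → (∀ x, (s₂ x).IsSymm) →
  (∀ x ∉ Bs n (3 / 4), s₁ x = 1) → (∀ x ∉ Bs n (3 / 4), s₂ x = 1) → ∀ δ η : ℝ, 0 ≤ δ → δ ≤ ε →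
  (∀ i j, Cl K δ (fun x => s₁ x i j - (1 : Matrix (Fin n) (Fin n) ℝ) i j)) →
  (∀ i j, Cl K δ (fun x => s₂ x i j - (1 : Matrix (Fin n) (Fin n) ℝ) i j)) → DB K η s₁ s₂ →
  ∃ w₁ K₁ w₂ K₂ : V n → V n, Dif (Bs n 2) w₁ K₁ ∧ Dif (Bs n 2) w₂ K₂ ∧ Cl L (C * δ) w₁ ∧
    Cl L (C * δ) w₂ ∧ Cl L (C * δ) (fun x => K₁ x - x) ∧ Cl L (C * δ) (fun x => K₂ x - x) ∧
    Cl L (C * η) (fun x => w₂ x - w₁ x) ∧ Cl L (C * η) (fun x => K₂ x - K₁ x) ∧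
    (∀ x ∈ Bs n (3 / 2), ∀ k, ∑ i, pd i (fun y => ∑ j, s₁ y i j * jm w₁ y k j) x = 0) ∧
    ∀ x ∈ Bs n (3 / 2), ∀ k, ∑ i, pd i (fun y => ∑ j, s₂ y i j * jm w₂ y k j) x = 0

/-- (SOLN) the overdetermined system without divergence conditions, bounds near the diagonal. -/
def RowSOLN : Prop := ∀ n m : ℕ, 3 ≤ n → ∃ (K : ℕ) (C ε : ℝ), 0 < C ∧ 0 < ε ∧
  ∀ M : ℝ, 0 < M → ∃ τ₀ : ℝ, 0 < τ₀ ∧ ∀ (s₁ s₂ : MF n) (e₁ e₂ : Co n m),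
  SmM s₁ → SmM s₂ → (∀ x, (s₁ x).IsSymm) → (∀ x, (s₂ x).IsSymm) →
  (∀ x ∉ Bs n (3 / 4), s₁ x = 1) → (∀ x ∉ Bs n (3 / 4), s₂ x = 1) →
  (∀ i j, Cl K ε (fun x => s₁ x i j - (1 : Matrix (Fin n) (Fin n) ℝ) i j)) →
  (∀ i j, Cl K ε (fun x => s₂ x i j - (1 : Matrix (Fin n) (Fin n) ℝ) i j)) →
  CoOk K ε M e₁ → CoOk K ε M e₂ → Com e₁ e₂ →
  ∀ η τ : ℝ, 0 ≤ η → DB K η s₁ s₂ → τ₀ ≤ τ → τ * η ≤ ε →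
  ∀ F₁ F₂ : Fin m → VV n → ℝ, (∀ p, ContDiff ℝ ∞ (F₁ p)) → (∀ p, ContDiff ℝ ∞ (F₂ p)) →
  (∀ z ∈ Bs n (5 / 4) ×ˢ Bs n (5 / 4), ∀ p, LyG s₂ e₂ F₁ p z = LxG s₁ e₁ F₂ p z) →
  ∀ B : ℝ, (∀ z ∈ Bs n (5 / 4) ×ˢ Bs n (5 / 4), ∀ p,
    |F₁ p z| ≤ B * (sq (z.1 - z.2) + 1 / τ) ∧ |F₂ p z| ≤ B * (sq (z.1 - z.2) + 1 / τ)) →
  ∃ w : Fin m → VV n → ℝ, (∀ p, ContDiffOn ℝ ∞ (w p) (Bs n (7 / 8) ×ˢ Bs n (7 / 8))) ∧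
    (∀ z ∈ Bs n (7 / 8) ×ˢ Bs n (7 / 8), ∀ p, LxG s₁ e₁ w p z = F₁ p z) ∧
    (∀ z ∈ Bs n (7 / 8) ×ˢ Bs n (7 / 8), ∀ p, LyG s₂ e₂ w p z = F₂ p z) ∧
    (∀ p, IntegrableOn (fun z => w p z ^ 2) ((Bs n (7 / 8) ×ˢ Bs n (7 / 8)) ∩
      {z | sq (z.1 - z.2) ≤ 16 * n / τ})) ∧
    ∑ p, ∫ z in (Bs n (7 / 8) ×ˢ Bs n (7 / 8)) ∩ {z | sq (z.1 - z.2) ≤ 16 * n / τ}, w p z ^ 2 ≤
      C * B ^ 2 / (τ ^ 3 * √τ ^ n)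

/-! ## The approximate solution -/

/-- (JQ) the approximate solution for one background `s, e`: `g` is the metric datum, `lm` the
connection datum. -/
def RowJQ : Prop := ∀ n m L : ℕ, 3 ≤ n → ∃ (K : ℕ) (C ε : ℝ), 0 < C ∧ 0 < ε ∧
  ∀ δ : ℝ, 0 ≤ δ → δ ≤ ε → ∀ (s : MF n) (e : Co n m), SmM s → (∀ x, (s x).IsSymm) →
  (∀ i j, Cl K δ (fun x => s x i j - (1 : Matrix (Fin n) (Fin n) ℝ) i j)) → CoOk K δ δ e →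
  (∀ x, e.c x = 0) → ∀ (g : Fin n → Fin n → V n → ℝ) (lm : Cn' n m),
  (∀ i j, ContDiff ℝ ∞ (g i j)) → (∀ i p q, ContDiff ℝ ∞ (fun x => lm i x p q)) →
  (∀ i j x, g i j x = g j i x) → (∀ x ∉ Bs n (1 / 2), (∀ i j, g i j x = 0) ∧ ∀ i, lm i x = 0) →
  (∀ x, ∑ i, ∑ j, s x i j * g i j x = 0) →
  (∀ x, ∑ i, pdX i (fun y => ∑ j, s y i j • lm j y) x = 0) →
  ∀ H : ℝ, (∀ i j, Cl K H (g i j)) → (∀ i p q, Cl K H (fun x => lm i x p q)) →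
  ∃ (k : Fin m → Fin m → VV n → ℝ) (kc : Cn' n m) (ρ : Fin n → V n → ℝ)
    (r : Fin n → Fin n → Mx n m),
    (∀ p q, ContDiff ℝ ∞ (k p q)) ∧ (∀ i p q, ContDiff ℝ ∞ (fun x => kc i x p q)) ∧
    (∀ i, ContDiff ℝ ∞ (ρ i)) ∧ (∀ i j p q, ContDiff ℝ ∞ (fun x => r i j x p q)) ∧
    (∀ z ∈ Bs n (5 / 4) ×ˢ Bs n (5 / 4), ∀ p q, ∀ l ≤ L, ‖iteratedFDeriv ℝ l (k p q) z‖ ≤ C * H) ∧
    (∀ z ∈ Bs n (5 / 4) ×ˢ Bs n (5 / 4), ∀ p q, ∀ l ≤ L,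
      ‖iteratedFDeriv ℝ l (fun z' => LxG s e (fun p' => k p' q) p z') z‖ ≤
        C * H * ‖z.1 - z.2‖ ^ (2 - l) ∧
      ‖iteratedFDeriv ℝ l (fun z' => LyG s e (fun q' => k p q') q z') z‖ ≤
        C * H * ‖z.1 - z.2‖ ^ (2 - l)) ∧
    (∀ x ∈ Bs n (3 / 4), ∀ p q i, dx i (k p q) (x, x) = kc i x p q) ∧
    (∀ x ∈ Bs n (3 / 4), ∀ p q i j, dx i (dy j (k p q)) (x, x) = pd j (fun y => kc i y p q) x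
      + (if p = q then g i j x else 0)
      - (pd j (fun y => lm i y p q) x + pd i (fun y => lm j y p q) x) / 2 - r i j x p q) ∧
    (∫ x in Bs n (1 / 2), ∑ i, ∑ p, ∑ q,
      (kc i x p q - lm i x p q - (if p = q then ρ i x else 0)) ^ 2) ≤
      C * δ ^ 2 * ∫ x, (∑ i, ∑ j, g i j x ^ 2 + ∑ i, fr2 (lm i x)) ∧
    (∫ x in Bs n (1 / 2), ∑ i, ∑ j, fr2 (r i j x)) ≤
      C * δ ^ 2 * ∫ x, (∑ i, ∑ j, g i j x ^ 2 + ∑ i, fr2 (lm i x)) ∧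
    (∫ x in Bs n (1 / 2), ∑ i, ρ i x ^ 2) ≤ C * ∫ x, ∑ i, ∑ j, g i j x ^ 2

/-- (TFRN) the trace is controlled by the trace free part and the divergence. -/
def RowTFRN : Prop := ∀ n : ℕ, 3 ≤ n → ∃ C ε : ℝ, 0 < C ∧ 0 < ε ∧ ∀ s₁ s₂ : MF n, SmM s₁ →
  SmM s₂ → (∀ x, (s₁ x).IsSymm) → (∀ x, (s₂ x).IsSymm) →
  (∀ i j, Cl 1 ε (fun x => s₁ x i j - (1 : Matrix (Fin n) (Fin n) ℝ) i j)) →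
  (∀ i j, Cl 1 ε (fun x => s₂ x i j - (1 : Matrix (Fin n) (Fin n) ℝ) i j)) →
  (∀ x ∉ Bs n (1 / 2), s₂ x = s₁ x) →
  ∫ p, ∑ i, ∑ j, (s₂ p i j - s₁ p i j) ^ 2 ≤
    C * (∫ p, ∑ i, ∑ j, (s₂ p i j - s₁ p i j) * tfp s₁ (fun x => s₂ x - s₁ x) p i j
      + ∫ p, ∑ j, (∑ i, pd i (fun y => s₂ y i j - s₁ y i j) p) ^ 2)

/-- (JPR) lower bound of the pairing: `g = tfp`, `lm = s₁⁻¹ (κ₂ - κ₁)`, `kc`, `ρ`, `r` as in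
(JQ). -/
def RowJPR : Prop := ∀ n m : ℕ, 3 ≤ n → 1 ≤ m → ∀ C₀ : ℝ, 0 < C₀ → ∃ c ε : ℝ, 0 < c ∧ 0 < ε ∧
  ∀ (s₁ s₂ : MF n) (P₁ P₂ : Mx n m) (κ₁ κ₂ : Cn' n m), HfOk 2 ε s₁ P₁ κ₁ → HfOk 2 ε s₂ P₂ κ₂ →
  DfOk ε s₁ P₁ κ₁ s₂ P₂ κ₂ → ∀ (kc : Cn' n m) (ρ : Fin n → V n → ℝ) (r : Fin n → Fin n → Mx n m),
  (∀ i p q, ContDiff ℝ ∞ (fun x => kc i x p q)) → (∀ i, ContDiff ℝ ∞ (ρ i)) →
  (∀ i j p q, ContDiff ℝ ∞ (fun x => r i j x p q)) →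
  (∫ x in Bs n (1 / 2), ∑ i, ∑ p, ∑ q, (kc i x p q
      - (∑ j, (s₁ x)⁻¹ i j * (κ₂ j x - κ₁ j x) p q) - (if p = q then ρ i x else 0)) ^ 2) ≤
    C₀ * ε ^ 2 * ∫ x, XX s₁ κ₁ s₂ κ₂ x →
  (∫ x in Bs n (1 / 2), ∑ i, ∑ j, fr2 (r i j x)) ≤ C₀ * ε ^ 2 * ∫ x, XX s₁ κ₁ s₂ κ₂ x →
  (∫ x in Bs n (1 / 2), ∑ i, ρ i x ^ 2) ≤ C₀ * ∫ x, XX s₁ κ₁ s₂ κ₂ x →
  c * ∫ x, XX s₁ κ₁ s₂ κ₂ x ≤ ∫ x in Bs n (1 / 2), ((∑ i, ∑ j, ∑ p, ∑ q,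
    dH s₁ P₁ s₂ P₂ i j x q p * (pd j (fun y => kc i y p q) x
      + (if p = q then tfp s₁ (fun y => s₂ y - s₁ y) x i j else 0)
      - (pd j (fun y => ∑ l, (s₁ y)⁻¹ i l * (κ₂ l y - κ₁ l y) p q) x
        + pd i (fun y => ∑ l, (s₁ y)⁻¹ j l * (κ₂ l y - κ₁ l y) p q) x) / 2 - r i j x p q))
    - ∑ i, ∑ p, ∑ q, (κ₂ i x - κ₁ i x) q p * kc i x p q)

/-! ## Dependencies

* `rowDIRS : RowHYP → RowDIRS`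
* `rowHC : RowDIRS → RowHC`
* `rowSOLN : RowSOLG → RowHC → RowSOLN`
* `rowJQ : RowDIRS → RowJQ`
* `rowTFRN : RowTFRN`
* `rowJPR : RowTFRN → RowJPR`
* `rowCO2A : RowSOLN → RowINPG → RowORTG → RowJQ → RowJPR → RowITP → RowCO2A`
-/

end Vale.Agent.P088.HY
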